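import Vale.Agent.P245.H827.Tilt

set_option linter.all false

/-! P245: the inequality `DBL` for the same law against a tilted base. -/

open MeasureTheory Real Set Filter Topology
open scoped ENNReal ContDiff

namespace Vale.Agent.P245.H827

open LS E1

variable {n : ℕ}

/-! ### shifts and trigonometric functions in `SB` -/

theorem pd_shift (N : (Fin n → ℝ) → ℝ) (a : Fin n → ℝ) (i : Fin n) :
    pd (fun y => N (y + a)) i = fun y => pd N i (y + a) := by
  funext y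
  unfold pd
  rw [fderiv_comp_add_right]

theorem SBk.shift (a : Fin n → ℝ) : ∀ {k : ℕ} {N : (Fin n → ℝ) → ℝ}, SBk k N →
    SBk k (fun y => N (y + a))
  | 0, N, h => ⟨h.1.comp (continuous_id.add continuous_const), by
      obtain ⟨C, hC⟩ := h.2
      exact ⟨C, fun y => hC _⟩⟩
  | k + 1, N, h => by
      obtain ⟨C, hC⟩ := h.1.2
      refine ⟨⟨h.1.1.comp (differentiable_id.add_const a), C, fun y => hC _⟩, fun i => ?_⟩
      rw [pd_shift]
      exact SBk.shift a (h.2 i)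

theorem SB.shift {N : (Fin n → ℝ) → ℝ} (h : SB N) (a : Fin n → ℝ) : SB (fun y => N (y + a)) :=
  fun k => SBk.shift a (h k)

theorem Pos.shift {N : (Fin n → ℝ) → ℝ} (h : Pos N) (a : Fin n → ℝ) :
    Pos (fun y => N (y + a)) := by
  obtain ⟨ε, hε, h1⟩ := h.lb
  exact ⟨SB.shift h.sb a, ε, hε, fun y => h1 _⟩

theorem hasFDerivAt_dt (k y : Fin n → ℝ) :
    HasFDerivAt (dt k) (∑ j, k j • (ContinuousLinearMap.proj (R := ℝ) j : (Fin n → ℝ) →L[ℝ] ℝ)) y := by
  have : dt k = fun y => (∑ j, k j • (ContinuousLinearMap.proj (R := ℝ) j : (Fin n → ℝ) →L[ℝ] ℝ)) y := by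
    funext z
    unfold dt
    simp only [_root_.sum_apply, _root_.smul_apply, ContinuousLinearMap.proj_apply,
      smul_eq_mul]
  rw [this]
  exact ContinuousLinearMap.hasFDerivAt _

theorem pd_dt (k : Fin n → ℝ) (i : Fin n) : pd (dt k) i = fun _ => k i := by
  funext y
  unfold pd
  rw [(hasFDerivAt_dt k y).fderiv]
  simp only [_root_.sum_apply, _root_.smul_apply, ContinuousLinearMap.proj_apply,
    smul_eq_mul, Pi.single_apply, mul_ite, mul_one, mul_zero, Finset.sum_ite_eq',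
    Finset.mem_univ, if_true]

theorem differentiable_dt (k : Fin n → ℝ) : Differentiable ℝ (dt k) :=
  fun y => (hasFDerivAt_dt k y).differentiableAt

theorem pd_sin (k : Fin n → ℝ) (c : ℝ) (i : Fin n) :
    pd (fun y => sin (c * dt k y)) i = fun y => c * k i * cos (c * dt k y) := by
  have h := pd_comp (φ := fun t => sin (c * t)) (φ' := fun t => c * cos (c * t))
    (differentiable_dt k) (fun y => by
      have := ((hasDerivAt_id (dt k y)).const_mul c).sin
      simpa [mul_comm] using this) i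
  rw [h, pd_dt]
  funext y
  ring

theorem pd_cos (k : Fin n → ℝ) (c : ℝ) (i : Fin n) :
    pd (fun y => cos (c * dt k y)) i = fun y => -(c * k i) * sin (c * dt k y) := by
  have h := pd_comp (φ := fun t => cos (c * t)) (φ' := fun t => -(c * sin (c * t)))
    (differentiable_dt k) (fun y => by
      have := ((hasDerivAt_id (dt k y)).const_mul c).cos
      simpa [mul_comm] using this) i
  rw [h, pd_dt]
  funext y
  ring

theorem sbk_trig (k : Fin n → ℝ) (c : ℝ) : ∀ m : ℕ,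
    SBk m (fun y => sin (c * dt k y)) ∧ SBk m (fun y => cos (c * dt k y))
  | 0 => ⟨⟨by have := continuous_dt k; fun_prop, 1, fun y => abs_sin_le_one _⟩,
      ⟨by have := continuous_dt k; fun_prop, 1, fun y => abs_cos_le_one _⟩⟩
  | m + 1 => by
    have hd := differentiable_dt k
    obtain ⟨h1, h2⟩ := sbk_trig k c m
    refine ⟨⟨⟨?_, 1, fun y => abs_sin_le_one _⟩, fun i => ?_⟩,
      ⟨⟨?_, 1, fun y => abs_cos_le_one _⟩, fun i => ?_⟩⟩
    · exact (hd.const_mul c).sin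
    · rw [pd_sin]; exact h2.const_mul _
    · exact (hd.const_mul c).cos
    · rw [pd_cos]; exact h1.const_mul _

theorem sb_sin (k : Fin n → ℝ) (c : ℝ) : SB (fun y => sin (c * dt k y)) :=
  fun m => (sbk_trig k c m).1

theorem sb_cos (k : Fin n → ℝ) (c : ℝ) : SB (fun y => cos (c * dt k y)) :=
  fun m => (sbk_trig k c m).2

/-! ### functions of exponential growth and the law `lw` -/

theorem EG1.lw_int {μ : Measure (Fin n → ℝ)} [IsProbabilityMeasure μ] {R : ℝ} (h : CSupp μ R)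
    {Φ : (Fin n → ℝ) → ℝ} (hΦ : EG1 Φ) (hm : Measurable Φ) (r : ℝ) :
    Integrable (fun q : (Fin n → ℝ) × (Fin n → ℝ) => Φ (q.1 + √r • q.2)) (μ.prod (gsn n)) := by
  obtain ⟨C, hC0, hC⟩ := hΦ
  have hi : Integrable (fun q : (Fin n → ℝ) × (Fin n → ℝ) =>
      C * exp (C * (n * R)) * exp (C * √r * ∑ i, |q.2 i|)) (μ.prod (gsn n)) := by
    refine Integrable.const_mul ?_ _
    exact (integrable_exp_abs (n := n) (C * √r)).comp_snd μ
  refine hi.mono' (hm.comp (measurable_lwmap r)).aestronglyMeasurable ?_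
  have hs : ∀ᵐ q ∂(μ.prod (gsn n)), ∀ i, |q.1 i| ≤ R :=
    (Measure.quasiMeasurePreserving_fst (μ := μ) (ν := gsn n)).ae h.supp
  filter_upwards [hs] with q hq
  rw [norm_eq_abs]
  refine (hC _).trans ?_
  rw [mul_assoc, ← exp_add]
  refine mul_le_mul_of_nonneg_left (exp_le_exp.2 ?_) hC0
  have h1 : ∑ i, |(q.1 + √r • q.2) i| ≤ n * R + √r * ∑ i, |q.2 i| := by
    have h2 : ∀ i, |(q.1 + √r • q.2) i| ≤ R + √r * |q.2 i| := by
      intro i
      simp only [Pi.add_apply, Pi.smul_apply, smul_eq_mul]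
      refine (abs_add_le _ _).trans (add_le_add (hq i) ?_)
      rw [abs_mul, abs_of_nonneg (sqrt_nonneg r)]
    refine (Finset.sum_le_sum fun i _ => h2 i).trans (le_of_eq ?_)
    rw [Finset.sum_add_distrib, Finset.mul_sum]
    simp
  calc C * ∑ i, |(q.1 + √r • q.2) i| ≤ C * (n * R + √r * ∑ i, |q.2 i|) :=
        mul_le_mul_of_nonneg_left h1 hC0
    _ = _ := by ring

theorem EG1.lw_integrable {μ : Measure (Fin n → ℝ)} [IsProbabilityMeasure μ] {R : ℝ}
    (h : CSupp μ R) {Φ : (Fin n → ℝ) → ℝ} (hΦ : EG1 Φ) (hm : Measurable Φ) (r : ℝ) :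
    Integrable Φ (lw μ r) := by
  unfold lw
  rw [integrable_map_measure hm.aestronglyMeasurable (measurable_lwmap r).aemeasurable]
  exact EG1.lw_int h hΦ hm r

theorem EY_eq_lw_eg {μ : Measure (Fin n → ℝ)} [IsProbabilityMeasure μ] {R : ℝ} (h : CSupp μ R)
    {Φ : (Fin n → ℝ) → ℝ} (hΦ : EG1 Φ) (hm : Measurable Φ) (r : ℝ) :
    EY μ r Φ = ∫ y, Φ y ∂(lw μ r) := by
  unfold EY PH lw
  rw [integral_map (measurable_lwmap r).aemeasurable hm.aestronglyMeasurable]
  rw [integral_prod _ (EG1.lw_int h hΦ hm r)]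

theorem EG1.of_bdd {Φ : (Fin n → ℝ) → ℝ} {C : ℝ} (hC : ∀ y, |Φ y| ≤ C) : EG1 Φ := by
  have hC0 : 0 ≤ C := (abs_nonneg _).trans (hC 0)
  refine ⟨C, hC0, fun y => (hC y).trans ?_⟩
  have : 1 ≤ exp (C * ∑ i, |y i|) := one_le_exp (mul_nonneg hC0 (Finset.sum_nonneg fun _ _ => abs_nonneg _))
  nlinarith only [this, hC0]

theorem EG1.of_sb {Φ : (Fin n → ℝ) → ℝ} (h : SB Φ) : EG1 Φ := by
  obtain ⟨C, hC⟩ := h.bdd
  exact EG1.of_bdd hC

theorem abs_dt_le (k y : Fin n → ℝ) : |dt k y| ≤ (∑ i, |k i|) * ∑ i, |y i| := by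
  unfold dt
  refine (Finset.abs_sum_le_sum_abs _ _).trans ?_
  rw [Finset.sum_mul]
  refine Finset.sum_le_sum fun i _ => ?_
  rw [abs_mul]
  exact mul_le_mul_of_nonneg_left (Finset.single_le_sum (f := fun i => |y i|)
    (fun j _ => abs_nonneg _) (Finset.mem_univ i)) (abs_nonneg _)

theorem EG1.mono {Φ Ψ : (Fin n → ℝ) → ℝ} (h : EG1 Φ) (hle : ∀ y, |Ψ y| ≤ |Φ y|) : EG1 Ψ := by
  obtain ⟨C, hC0, hC⟩ := h
  exact ⟨C, hC0, fun y => (hle y).trans (hC y)⟩

theorem EG1.exp_dt (k : Fin n → ℝ) (c : ℝ) : EG1 (fun y => exp (c * |dt k y|)) := by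
  set K := ∑ i, |k i|
  have hK : 0 ≤ K := Finset.sum_nonneg fun _ _ => abs_nonneg _
  refine ⟨max 1 (|c| * K), le_max_of_le_left zero_le_one, fun y => ?_⟩
  have hS : 0 ≤ ∑ i, |y i| := Finset.sum_nonneg fun _ _ => abs_nonneg _
  rw [abs_of_pos (exp_pos _)]
  have h1 : c * |dt k y| ≤ max 1 (|c| * K) * ∑ i, |y i| := by
    calc c * |dt k y| ≤ |c| * |dt k y| := mul_le_mul_of_nonneg_right (le_abs_self c) (abs_nonneg _)
      _ ≤ |c| * (K * ∑ i, |y i|) := mul_le_mul_of_nonneg_left (abs_dt_le k y) (abs_nonneg _)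
      _ = (|c| * K) * ∑ i, |y i| := by ring
      _ ≤ _ := mul_le_mul_of_nonneg_right (le_max_right _ _) hS
  calc exp (c * |dt k y|) ≤ exp (max 1 (|c| * K) * ∑ i, |y i|) := exp_le_exp.2 h1
    _ = 1 * exp (max 1 (|c| * K) * ∑ i, |y i|) := (one_mul _).symm
    _ ≤ _ := mul_le_mul_of_nonneg_right (le_max_left _ _) (exp_pos _).le

theorem EG1.dt (k : Fin n → ℝ) : EG1 (dt k) := by
  refine EG1.mono (EG1.exp_dt k 1) fun y => ?_
  rw [abs_of_pos (exp_pos _), one_mul]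
  linarith only [add_one_le_exp |H827.dt k y|]

/-! ### the truncated linear function `ψ_m = m sin (⟨k, y⟩ / m)` -/

/-- the truncated linear function -/
noncomputable def ps (k : Fin n → ℝ) (m : ℕ) (y : Fin n → ℝ) : ℝ :=
  (m + 1 : ℝ) * sin ((m + 1 : ℝ)⁻¹ * dt k y)

theorem abs_ps_le (k : Fin n → ℝ) (m : ℕ) (y : Fin n → ℝ) : |ps k m y| ≤ |dt k y| := by
  unfold ps
  have hm : (0 : ℝ) < m + 1 := by positivity
  rw [abs_mul, abs_of_pos hm]
  calc (m + 1 : ℝ) * |sin ((m + 1 : ℝ)⁻¹ * dt k y)| ≤ (m + 1 : ℝ) * |(m + 1 : ℝ)⁻¹ * dt k y| :=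
        mul_le_mul_of_nonneg_left abs_sin_le_abs hm.le
    _ = |dt k y| := by
        rw [abs_mul, abs_of_pos (inv_pos.2 hm), ← mul_assoc, mul_inv_cancel₀ hm.ne', one_mul]

theorem tendsto_ps (k y : Fin n → ℝ) : Tendsto (fun m => ps k m y) atTop (𝓝 (dt k y)) := by
  have h0 : Tendsto (fun m : ℕ => (m + 1 : ℝ)⁻¹ * dt k y) atTop (𝓝 0) := by
    have := (tendsto_one_div_add_atTop_nhds_zero_nat (𝕜 := ℝ)).mul_const (dt k y)
    simpa [one_div] using this
  have h1 : Tendsto (fun m : ℕ => dt k y * sinc ((m + 1 : ℝ)⁻¹ * dt k y)) atTop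
      (𝓝 (dt k y * sinc 0)) := ((continuous_sinc.tendsto 0).comp h0).const_mul _
  rw [sinc_zero, mul_one] at h1
  refine h1.congr fun m => ?_
  unfold ps
  have hm : (0 : ℝ) < m + 1 := by positivity
  by_cases hz : (m + 1 : ℝ)⁻¹ * dt k y = 0
  · have hd : dt k y = 0 := by
      rcases mul_eq_zero.1 hz with h | h
      · exact absurd h (inv_pos.2 hm).ne'
      · exact h
    rw [hd]; simp
  · rw [sinc_of_ne_zero hz]
    have hd : dt k y ≠ 0 := right_ne_zero_of_mul hz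
    field_simp

theorem sb_ps (k : Fin n → ℝ) (m : ℕ) : SB (ps k m) := (sb_sin k _).const_mul _

theorem pd_ps (k : Fin n → ℝ) (m : ℕ) (i : Fin n) :
    pd (ps k m) i = fun y => k i * cos ((m + 1 : ℝ)⁻¹ * dt k y) := by
  have hm : (0 : ℝ) < m + 1 := by positivity
  have h := LS.pd_mul (N := fun _ : Fin n → ℝ => (m + 1 : ℝ)) (M := fun y => sin ((m + 1 : ℝ)⁻¹ * dt k y))
    (differentiable_const _) (sb_sin k _).differentiable i
  have e : pd (ps k m) i = _ := h
  rw [e, pd_sin]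
  funext y
  have h0 : pd (fun _ : Fin n → ℝ => (m + 1 : ℝ)) i y = 0 := by
    unfold pd; rw [fderiv_const_apply]; rfl
  rw [h0]
  field_simp
  ring

end Vale.Agent.P245.H827
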