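import Vale.Agent.P245.H827.Ext

set_option linter.all false

/-! P245: the inequality `DBL` for the same law against a tilted base. -/

open MeasureTheory Real Set Filter Topology
open scoped ENNReal ContDiff

namespace Vale.Agent.P245.H827

open LS E1

variable {n : ℕ}

section

variable {μ : Measure (Fin n → ℝ)} [IsProbabilityMeasure μ] {R : ℝ}

theorem EY_tendsto (h : CSupp μ R) {Φ : ℕ → (Fin n → ℝ) → ℝ} {Ψ b : (Fin n → ℝ) → ℝ}
    (hb : EG1 b) (hbm : Measurable b) (hm : ∀ m, Measurable (Φ m))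
    (hle : ∀ m y, |Φ m y| ≤ b y)
    (hlim : ∀ y, Tendsto (fun m => Φ m y) atTop (𝓝 (Ψ y))) (r : ℝ) :
    Tendsto (fun m => EY μ r (Φ m)) atTop (𝓝 (EY μ r Ψ)) := by
  have hΨm : Measurable Ψ := measurable_of_tendsto_metrizable hm (tendsto_pi_nhds.2 hlim)
  have hb0 : ∀ y, 0 ≤ b y := fun y => (abs_nonneg _).trans (hle 0 y)
  have hΨle : ∀ y, |Ψ y| ≤ b y := fun y => le_of_tendsto ((hlim y).abs)
    (Eventually.of_forall fun m => hle m y)
  have e1 : ∀ m, EG1 (Φ m) := fun m => EG1.mono hb fun y => by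
    rw [abs_of_nonneg (hb0 y)]; exact hle m y
  have e2 : EG1 Ψ := EG1.mono hb fun y => by rw [abs_of_nonneg (hb0 y)]; exact hΨle y
  rw [EY_eq_lw_eg h e2 hΨm]
  simp only [fun m => EY_eq_lw_eg h (e1 m) (hm m) r]
  exact tendsto_integral_of_dominated_convergence b (fun m => (hm m).aestronglyMeasurable)
    (EG1.lw_integrable h hb hbm r) (fun m => Eventually.of_forall fun y => hle m y)
    (Eventually.of_forall hlim)

theorem EY_add_eg (h : CSupp μ R) {Φ Ψ : (Fin n → ℝ) → ℝ} (hΦ : EG1 Φ) (hm : Measurable Φ)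
    (hΨ : EG1 Ψ) (hm' : Measurable Ψ) (r : ℝ) :
    EY μ r (fun y => Φ y + Ψ y) = EY μ r Φ + EY μ r Ψ := by
  rw [EY_eq_lw_eg h (hΦ.add hΨ) (hm.add hm'), EY_eq_lw_eg h hΦ hm, EY_eq_lw_eg h hΨ hm',
    integral_add (EG1.lw_integrable h hΦ hm r) (EG1.lw_integrable h hΨ hm' r)]

theorem EY_pos {N : (Fin n → ℝ) → ℝ} (hN : Pos N) (r : ℝ) : 0 < EY μ r N := by
  obtain ⟨ε, hε, h1⟩ := hN.lb
  rw [EY_eq_lw_sb μ r hN.sb]
  have := integral_mono (μ := lw μ r) (integrable_const ε) (hN.sb.integrable (lw μ r)) h1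
  simp only [integral_const, probReal_univ, smul_eq_mul, one_mul] at this
  linarith only [this, hε]

/-- the defective inequality for densities which are not normalised -/
theorem dbl_unnorm {r κ D : ℝ} (hD : DBL μ r κ D) {F : (Fin n → ℝ) → ℝ} (hF : Pos F) :
    HE μ r F - EY μ r F * log (EY μ r F) ≤ κ * FI μ r F + D * EY μ r F := by
  have hm := EY_pos (μ := μ) hF r
  set m := EY μ r F with hmdef
  have hc : 0 < m⁻¹ := inv_pos.2 hm
  have h1 := hD (fun y => m⁻¹ * F y) (hF.const_mul hc) (by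
    rw [EY_const_mul, ← hmdef, inv_mul_cancel₀ hm.ne'])
  have e1 : HE μ r (fun y => m⁻¹ * F y) = m⁻¹ * (HE μ r F - m * log m) := by
    unfold HE
    have e : (fun y => m⁻¹ * F y * log (m⁻¹ * F y))
        = fun y => m⁻¹ * (F y * log (F y) + (-log m) * F y) := by
      funext y
      rw [log_mul hc.ne' (hF.pos y).ne', log_inv]
      ring
    rw [e, EY_const_mul, EY_add μ r (hF.sb.mul hF.log) (hF.sb.const_mul _), EY_const_mul,
      ← hmdef]
    ring
  have e2 : FI μ r (fun y => m⁻¹ * F y) = m⁻¹ * FI μ r F := by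
    unfold FI
    rw [← EY_const_mul]
    congr 1
    funext y
    have : ∀ i, pd (fun y => m⁻¹ * F y) i y = m⁻¹ * pd F i y := by
      intro i
      rw [LS.pd_mul (differentiable_const _) hF.sb.differentiable]
      have h0 : pd (fun _ : Fin n → ℝ => m⁻¹) i y = 0 := by
        unfold pd; rw [fderiv_const_apply]; rfl
      simp only [h0, zero_mul, add_zero]
    simp only [this, mul_pow]
    rw [← Finset.mul_sum]
    have hFy := (hF.pos y).ne'
    field_simp
  rw [e1, e2] at h1
  have h2 := mul_le_mul_of_nonneg_left h1 hm.le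
  have e3 : m * (m⁻¹ * (HE μ r F - m * log m)) = HE μ r F - m * log m := by
    rw [← mul_assoc, mul_inv_cancel₀ hm.ne', one_mul]
  have e4 : m * (κ * (m⁻¹ * FI μ r F) + D) = κ * FI μ r F + D * m := by
    field_simp
  rw [e3, e4] at h2
  exact h2

end

variable {ρ : (Fin n → ℝ) → ℝ} {R : ℝ} (hρ : LCd ρ) [IsProbabilityMeasure (mu ρ)]
  (h : CSupp (mu ρ) R)

/-- truncated tilt of `N` -/
noncomputable def Gm (k : Fin n → ℝ) (N : (Fin n → ℝ) → ℝ) (m : ℕ) (y : Fin n → ℝ) : ℝ :=
  N y * exp (-ps k m y)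

theorem Gm_pos (k : Fin n → ℝ) {N : (Fin n → ℝ) → ℝ} (hN : Pos N) (m : ℕ) : Pos (Gm k N m) :=
  hN.mul (sb_ps k m).neg.exp_pos

theorem pd_Gm (k : Fin n → ℝ) {N : (Fin n → ℝ) → ℝ} (hN : Pos N) (m : ℕ) (i : Fin n) :
    pd (Gm k N m) i = fun y => exp (-ps k m y) *
      (pd N i y - N y * (k i * cos ((m + 1 : ℝ)⁻¹ * dt k y))) := by
  have hs := (sb_ps k m).neg
  have e1 := LS.pd_mul (M := fun y => exp (-ps k m y)) hN.sb.differentiable hs.exp.differentiable i
  have e2 : pd (fun y => exp (-ps k m y)) i = fun y => exp (-ps k m y) * pd (fun y => -ps k m y) i y :=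
    LS.pd_comp hs.differentiable (fun y => hasDerivAt_exp _) i
  have e3 : pd (fun y => -ps k m y) i = fun y => - pd (ps k m) i y := by
    funext y
    unfold pd
    rw [fderiv_fun_neg]
    rfl
  have e0 : pd (Gm k N m) i = _ := e1
  rw [e0, e2, e3, pd_ps]
  funext y
  ring

include hρ h

/-- **the same law against the tilted base** -/
theorem ext_ineq {r : ℝ} (hr : 0 ≤ r) {N : (Fin n → ℝ) → ℝ} (hN : Pos N)
    (h1 : EY (mu ρ) r N = 1) (k : Fin n → ℝ) {κ D : ℝ} (hD : DBL (mu (tl ρ k)) r κ D) :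
    HE (mu ρ) r N - EY (mu ρ) r (fun y => N y * dt k y)
        + (r / 2 * dt k k + log (Zo (mu ρ) (0, k)))
      ≤ κ * (FI (mu ρ) r N - 2 * ∑ i, k i * EY (mu ρ) r (pd N i) + dt k k) + D := by
  have hP := tl_prob hρ h k
  have hZ := Zo_pos h (0, k)
  set c := exp (r / 2 * dt k k) * Zo (mu ρ) (0, k) with hcdef
  have hc : 0 < c := by positivity
  have hT : ∀ Ψ : (Fin n → ℝ) → ℝ, EY (mu (tl ρ k)) r (fun y => Ψ (y + r • k))
      = c⁻¹ * EY (mu ρ) r (fun y => exp (dt k y) * Ψ y) := by
    intro Ψ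
    rw [EY_tilt hρ h hr, ← mul_assoc, inv_mul_cancel₀ hc.ne', one_mul]
  obtain ⟨C1, hC10, hC1⟩ := hN.sb.bdd'
  obtain ⟨C2, hC20, hC2⟩ := hN.log.bdd'
  have hN0 := hN.pos
  -- the three quantities
  have hA : ∀ m, EY (mu (tl ρ k)) r (fun y => Gm k N m (y + r • k))
      = c⁻¹ * EY (mu ρ) r (fun y => exp (dt k y) * Gm k N m y) := fun m => hT _
  have hB : ∀ m, HE (mu (tl ρ k)) r (fun y => Gm k N m (y + r • k))
      = c⁻¹ * EY (mu ρ) r (fun y => exp (dt k y) * (Gm k N m y * log (Gm k N m y))) :=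
    fun m => hT (fun y => Gm k N m y * log (Gm k N m y))
  have hE : ∀ m, FI (mu (tl ρ k)) r (fun y => Gm k N m (y + r • k))
      = c⁻¹ * EY (mu ρ) r (fun y => exp (dt k y) * ((∑ i, pd (Gm k N m) i y ^ 2) / Gm k N m y)) := by
    intro m
    rw [← hT]
    unfold FI
    simp only [pd_shift]
  -- bounds
  have hexp : ∀ m y, exp (dt k y) * exp (-ps k m y) ≤ exp (2 * |dt k y|) := by
    intro m y
    rw [← exp_add]
    refine exp_le_exp.2 ?_
    have h2 := abs_ps_le k m y
    have h3 := le_abs_self (dt k y)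
    have h4 := neg_le_abs (ps k m y)
    linarith only [h2, h3, h4]
  have mps : ∀ m, Measurable (ps k m) := fun m => (sb_ps k m).measurable
  have mdt : Measurable (dt k) := (continuous_dt k).measurable
  have mN : Measurable N := hN.sb.measurable
  have mG : ∀ m, Measurable (Gm k N m) := fun m => (Gm_pos k hN m).sb.measurable
  -- limit of A
  have limA : Tendsto (fun m => EY (mu ρ) r (fun y => exp (dt k y) * Gm k N m y)) atTop
      (𝓝 1) := by
    rw [← h1]
    refine EY_tendsto h (b := fun y => C1 * exp (2 * |dt k y|))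
      ((EG1.exp_dt k 2).const_mul C1) (by fun_prop) (fun m => by have := mG m; fun_prop)
      (fun m y => ?_) (fun y => ?_) r
    · have e : exp (dt k y) * Gm k N m y = N y * (exp (dt k y) * exp (-ps k m y)) := by
        unfold Gm; ring
      rw [e, abs_mul, abs_of_pos (mul_pos (exp_pos _) (exp_pos _))]
      exact mul_le_mul (hC1 y) (hexp m y) (by positivity) hC10
    · have e : ∀ m, exp (dt k y) * Gm k N m y = N y * exp (dt k y - ps k m y) := by
        intro m; unfold Gm; rw [sub_eq_add_neg, exp_add]; ring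
      simp only [e]
      have := ((tendsto_const_nhds (x := dt k y)).sub (tendsto_ps k y)).rexp.const_mul (N y)
      simpa using this
  -- limit of B
  have limB : Tendsto (fun m => EY (mu ρ) r
      (fun y => exp (dt k y) * (Gm k N m y * log (Gm k N m y)))) atTop
      (𝓝 (EY (mu ρ) r (fun y => N y * (log (N y) - dt k y)))) := by
    refine EY_tendsto h (b := fun y => C1 * exp (2 * |dt k y|) * (C2 + exp (1 * |dt k y|)))
      (EG1.mul ((EG1.exp_dt k 2).const_mul C1)
        (EG1.add (EG1.of_bdd (C := |C2|) fun _ => le_rfl) (EG1.exp_dt k 1)))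
      (by fun_prop) (fun m => ?_) (fun m y => ?_) (fun y => ?_) r
    · have := mG m
      fun_prop
    · have e : exp (dt k y) * (Gm k N m y * log (Gm k N m y))
          = N y * (exp (dt k y) * exp (-ps k m y)) * (log (N y) + -ps k m y) := by
        have : log (Gm k N m y) = log (N y) + -ps k m y := by
          unfold Gm; rw [log_mul (hN0 y).ne' (exp_pos _).ne', log_exp]
        rw [this]; unfold Gm; ring
      rw [e, abs_mul, abs_mul, abs_of_pos (mul_pos (exp_pos (dt k y)) (exp_pos _))]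
      refine mul_le_mul (mul_le_mul (hC1 y) (hexp m y) (by positivity) hC10) ?_ (abs_nonneg _)
        (by positivity)
      refine (abs_add_le _ _).trans (add_le_add (hC2 y) ?_)
      rw [abs_neg, one_mul]
      have h2 := abs_ps_le k m y
      linarith only [h2, add_one_le_exp |dt k y|]
    · have e : ∀ m, exp (dt k y) * (Gm k N m y * log (Gm k N m y))
          = N y * exp (dt k y - ps k m y) * (log (N y) - ps k m y) := by
        intro m
        have : log (Gm k N m y) = log (N y) + -ps k m y := by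
          unfold Gm; rw [log_mul (hN0 y).ne' (exp_pos _).ne', log_exp]
        rw [this]; unfold Gm; rw [sub_eq_add_neg (dt k y), exp_add]; ring
      simp only [e]
      have t1 := ((tendsto_const_nhds (x := dt k y)).sub (tendsto_ps k y)).rexp.const_mul (N y)
      have t2 := (tendsto_const_nhds (x := log (N y))).sub (tendsto_ps k y)
      have := t1.mul t2
      simpa using this
  -- limit of E
  have limE : Tendsto (fun m => EY (mu ρ) r
      (fun y => exp (dt k y) * ((∑ i, pd (Gm k N m) i y ^ 2) / Gm k N m y))) atTop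
      (𝓝 (EY (mu ρ) r (fun y => (∑ i, (pd N i y - N y * k i) ^ 2) / N y))) := by
    have hV : ∀ i, ∃ C, 0 ≤ C ∧ ∀ y, |pd N i y| ≤ C := fun i => (hN.sb.pd i).bdd'
    choose V hV0 hV using hV
    obtain ⟨C3, hC30, hC3⟩ := hN.inv.sb.bdd'
    have e : ∀ m y, exp (dt k y) * ((∑ i, pd (Gm k N m) i y ^ 2) / Gm k N m y)
        = (exp (dt k y) * exp (-ps k m y)) *
          ((∑ i, (pd N i y - N y * (k i * cos ((m + 1 : ℝ)⁻¹ * dt k y))) ^ 2) * (N y)⁻¹) := by
      intro m y
      simp only [pd_Gm k hN, mul_pow]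
      rw [← Finset.mul_sum]
      unfold Gm
      have := (hN0 y).ne'
      have h5 := (exp_pos (-ps k m y)).ne'
      generalize (∑ i, (pd N i y - N y * (k i * cos ((m + 1 : ℝ)⁻¹ * dt k y))) ^ 2) = S
      generalize exp (-ps k m y) = E at h5 ⊢
      field_simp
    refine EY_tendsto h (b := fun y => exp (2 * |dt k y|) *
        ((∑ i, (V i + C1 * |k i|) ^ 2) * C3))
      ((EG1.exp_dt k 2).mul (EG1.of_bdd (C := |(∑ i, (V i + C1 * |k i|) ^ 2) * C3|)
        fun _ => le_rfl)) (by fun_prop) (fun m => ?_) (fun m y => ?_) (fun y => ?_) r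
    · have h2 := mG m
      have h3 : ∀ i, Measurable (pd (Gm k N m) i) := fun i => ((Gm_pos k hN m).sb.pd i).measurable
      exact (mdt.exp).mul ((Finset.measurable_sum _ fun i _ => (h3 i).pow_const 2).div h2)
    · rw [e, abs_mul, abs_of_pos (mul_pos (exp_pos (dt k y)) (exp_pos _))]
      refine mul_le_mul (hexp m y) ?_ (abs_nonneg _) (by positivity)
      rw [abs_mul]
      refine mul_le_mul ?_ (hC3 y) (abs_nonneg _) (Finset.sum_nonneg fun _ _ => sq_nonneg _)
      rw [abs_of_nonneg (Finset.sum_nonneg fun _ _ => sq_nonneg _)]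
      refine Finset.sum_le_sum fun i _ => ?_
      rw [← sq_abs]
      refine pow_le_pow_left₀ (abs_nonneg _) ?_ 2
      refine (abs_sub _ _).trans (add_le_add (hV i y) ?_)
      rw [abs_mul, abs_mul]
      refine mul_le_mul (hC1 y) ?_ (by positivity) hC10
      calc |k i| * |cos ((m + 1 : ℝ)⁻¹ * dt k y)| ≤ |k i| * 1 :=
            mul_le_mul_of_nonneg_left (abs_cos_le_one _) (abs_nonneg _)
        _ = |k i| := mul_one _
    · simp only [e]
      have h0 : Tendsto (fun m : ℕ => (m + 1 : ℝ)⁻¹ * dt k y) atTop (𝓝 0) := by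
        have := (tendsto_one_div_add_atTop_nhds_zero_nat (𝕜 := ℝ)).mul_const (dt k y)
        simpa [one_div] using this
      have h2 : Tendsto (fun m : ℕ => cos ((m + 1 : ℝ)⁻¹ * dt k y)) atTop (𝓝 1) := by
        have := (continuous_cos.tendsto 0).comp h0
        rwa [cos_zero] at this
      have t1 : Tendsto (fun m : ℕ => exp (dt k y) * exp (-ps k m y)) atTop (𝓝 1) := by
        have e : ∀ m, exp (dt k y) * exp (-ps k m y) = exp (dt k y - ps k m y) := by
          intro m; rw [sub_eq_add_neg, exp_add]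
        simp only [e]
        have := ((tendsto_const_nhds (x := dt k y)).sub (tendsto_ps k y)).rexp
        simpa using this
      have t2 : Tendsto (fun m : ℕ => ∑ i, (pd N i y - N y * (k i *
          cos ((m + 1 : ℝ)⁻¹ * dt k y))) ^ 2) atTop (𝓝 (∑ i, (pd N i y - N y * k i) ^ 2)) := by
        refine tendsto_finset_sum _ fun i _ => ?_
        have := ((h2.const_mul (k i)).const_mul (N y)).const_sub (pd N i y)
        rw [mul_one] at this
        exact this.pow 2
      have := t1.mul (t2.mul_const ((N y)⁻¹))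
      rw [one_mul, ← div_eq_mul_inv] at this
      exact this
  -- the inequalities
  have key : ∀ m, EY (mu ρ) r (fun y => exp (dt k y) * (Gm k N m y * log (Gm k N m y)))
      - EY (mu ρ) r (fun y => exp (dt k y) * Gm k N m y) *
        log (c⁻¹ * EY (mu ρ) r (fun y => exp (dt k y) * Gm k N m y))
      ≤ κ * EY (mu ρ) r (fun y => exp (dt k y) * ((∑ i, pd (Gm k N m) i y ^ 2) / Gm k N m y))
        + D * EY (mu ρ) r (fun y => exp (dt k y) * Gm k N m y) := by
    intro m
    have := dbl_unnorm hD (Pos.shift (Gm_pos k hN m) (r • k))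
    rw [hA, hB, hE] at this
    have h2 := mul_le_mul_of_nonneg_left this hc.le
    have e : ∀ x, c * (c⁻¹ * x) = x := fun x => by rw [← mul_assoc, mul_inv_cancel₀ hc.ne', one_mul]
    calc _ = c * (c⁻¹ * EY (mu ρ) r (fun y => exp (dt k y) * (Gm k N m y * log (Gm k N m y)))
      - c⁻¹ * EY (mu ρ) r (fun y => exp (dt k y) * Gm k N m y) *
        log (c⁻¹ * EY (mu ρ) r (fun y => exp (dt k y) * Gm k N m y))) := by
          rw [mul_sub, e, ← mul_assoc, e]
      _ ≤ _ := h2
      _ = _ := by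
          rw [mul_add, mul_left_comm, e, mul_left_comm c D, e]
  have hlog : Tendsto (fun m => log (c⁻¹ * EY (mu ρ) r (fun y => exp (dt k y) * Gm k N m y)))
      atTop (𝓝 (log (c⁻¹ * 1))) :=
    (limA.const_mul c⁻¹).log (by rw [mul_one]; exact (inv_pos.2 hc).ne')
  have fin := le_of_tendsto_of_tendsto' (limB.sub (limA.mul hlog))
    ((limE.const_mul κ).add (limA.const_mul D)) key
  have eB : EY (mu ρ) r (fun y => N y * (log (N y) - dt k y))
      = HE (mu ρ) r N - EY (mu ρ) r (fun y => N y * dt k y) := by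
    have e : (fun y => N y * (log (N y) - dt k y))
        = fun y => N y * log (N y) + (-1) * (N y * dt k y) := by funext y; ring
    have g1 : EG1 (fun y => N y * dt k y) := EG1.mul (EG1.of_sb hN.sb) (EG1.dt k)
    rw [e, EY_add_eg h (EG1.of_sb (hN.sb.mul hN.log)) (hN.sb.mul hN.log).measurable
      (g1.const_mul _) ((mN.mul mdt).const_mul _), EY_const_mul]
    unfold HE
    ring
  have eE : EY (mu ρ) r (fun y => (∑ i, (pd N i y - N y * k i) ^ 2) / N y)
      = FI (mu ρ) r N - 2 * ∑ i, k i * EY (mu ρ) r (pd N i) + dt k k := by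
    have e : (fun y => (∑ i, (pd N i y - N y * k i) ^ 2) / N y)
        = fun y => (∑ i, pd N i y ^ 2) / N y + (∑ i, (-2 * k i) * pd N i y + dt k k * N y) := by
      funext y
      have h2 := (hN0 y).ne'
      have h3 : ∑ i, (pd N i y - N y * k i) ^ 2 = ∑ i, pd N i y ^ 2
          + N y * (∑ i, (-2 * k i) * pd N i y + dt k k * N y) := by
        rw [dt_self, mul_add, Finset.mul_sum, Finset.sum_mul, Finset.mul_sum,
          ← Finset.sum_add_distrib, ← Finset.sum_add_distrib]
        exact Finset.sum_congr rfl fun i _ => by ring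
      rw [h3, add_div, mul_div_cancel_left₀ _ h2]
    have s1 : SB (fun y => (∑ i, pd N i y ^ 2) / N y) :=
      hN.div (SB.sum _ fun i _ => (hN.sb.pd i).pow 2)
    have s2 : ∀ i ∈ (Finset.univ : Finset (Fin n)), SB (fun y => (-2 * k i) * pd N i y) :=
      fun i _ => (hN.sb.pd i).const_mul _
    rw [e, EY_add _ r s1 ((SB.sum _ s2).add (hN.sb.const_mul _)),
      EY_add _ r (SB.sum _ s2) (hN.sb.const_mul _), EY_sum _ r _ s2, EY_const_mul, h1]
    simp only [EY_const_mul]
    unfold FI
    have : ∑ i, -2 * k i * EY (mu ρ) r (pd N i) = - (2 * ∑ i, k i * EY (mu ρ) r (pd N i)) := by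
      rw [Finset.mul_sum, ← Finset.sum_neg_distrib]
      exact Finset.sum_congr rfl fun i _ => by ring
    rw [this]
    ring
  rw [eB, eE, mul_one, log_inv, hcdef, log_mul (exp_pos _).ne' hZ.ne', log_exp] at fin
  linarith only [fin]

end Vale.Agent.P245.H827
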