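import Vale.Agent.P245.Bdl.B1

/-! P245: linear tilts of the base measure in the `EY`-language. -/

set_option linter.all false

open MeasureTheory Real Set Filter Topology
open scoped ENNReal ContDiff

namespace Vale.Agent.P245.H827

open LS E1

variable {n : ℕ} {ρ : (Fin n → ℝ) → ℝ} {R : ℝ}

/-- `⟨k, y⟩` -/
def dt (k y : Fin n → ℝ) : ℝ := ∑ i, k i * y i

theorem dt_add (k y z : Fin n → ℝ) : dt k (y + z) = dt k y + dt k z := by
  unfold dt
  rw [← Finset.sum_add_distrib]
  exact Finset.sum_congr rfl fun i _ => by simp only [Pi.add_apply]; ring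

theorem dt_add_left (k l y : Fin n → ℝ) : dt (k + l) y = dt k y + dt l y := by
  unfold dt
  rw [← Finset.sum_add_distrib]
  exact Finset.sum_congr rfl fun i _ => by simp only [Pi.add_apply]; ring

theorem dt_smul (k y : Fin n → ℝ) (c : ℝ) : dt k (c • y) = c * dt k y := by
  unfold dt
  rw [Finset.mul_sum]
  exact Finset.sum_congr rfl fun i _ => by simp only [Pi.smul_apply, smul_eq_mul]; ring

theorem dt_smul_left (k y : Fin n → ℝ) (c : ℝ) : dt (c • k) y = c * dt k y := by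
  unfold dt
  rw [Finset.mul_sum]
  exact Finset.sum_congr rfl fun i _ => by simp only [Pi.smul_apply, smul_eq_mul]; ring

theorem dt_comm (k y : Fin n → ℝ) : dt k y = dt y k := by
  unfold dt
  exact Finset.sum_congr rfl fun i _ => mul_comm _ _

theorem dt_self (k : Fin n → ℝ) : dt k k = ∑ i, k i ^ 2 := by
  unfold dt
  exact Finset.sum_congr rfl fun i _ => (sq _).symm

theorem dt_zero_left (y : Fin n → ℝ) : dt 0 y = 0 := by
  unfold dt; simp

theorem continuous_dt (k : Fin n → ℝ) : Continuous (dt k) := by unfold dt; fun_prop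

/-- the tilt of the density `ρ` by `exp ⟨k, x⟩` -/
noncomputable def tl (ρ : (Fin n → ℝ) → ℝ) (k : Fin n → ℝ) : (Fin n → ℝ) → ℝ := fun x =>
  ρ x * (exp (∑ i, k i * x i) * (Zo (mu ρ) (0, k))⁻¹)

theorem post_zero (ρ : (Fin n → ℝ) → ℝ) (k : Fin n → ℝ) : post ρ (0, k) = mu (tl ρ k) := by
  unfold post mu tl gwt
  congr 1
  funext x
  simp only [zero_div, zero_mul, neg_zero, exp_zero, mul_one]
  rfl

theorem lx_zero (x k : Fin n → ℝ) : lx x ((0 : ℝ), k) = dt k x := by
  unfold lx dt; simp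

section

variable (hρ : LCd ρ) [IsProbabilityMeasure (mu ρ)] (h : CSupp (mu ρ) R)

include hρ h

theorem tl_lcd (k : Fin n → ℝ) : LCd (tl ρ k) :=
  hρ.mul_expL k (inv_pos.2 (Zo_pos h _))

theorem tl_prob (k : Fin n → ℝ) : IsProbabilityMeasure (mu (tl ρ k)) := by
  rw [← post_zero]; exact isProb_post hρ h _

theorem tl_csupp (k : Fin n → ℝ) : CSupp (mu (tl ρ k)) R where
  nonneg := h.nonneg
  supp := by
    rw [← post_zero, post_eq hρ]
    exact (withDensity_absolutelyContinuous _ _).ae_le h.supp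

theorem integral_tl (k : Fin n → ℝ) (φ : (Fin n → ℝ) → ℝ) :
    ∫ x, φ x ∂(mu (tl ρ k)) = Mf (mu ρ) φ (0, k) := by
  rw [← post_zero]; exact integral_post hρ h _ φ

theorem integral_exp_mul (k : Fin n → ℝ) (φ : (Fin n → ℝ) → ℝ) :
    ∫ x, exp (dt k x) * φ x ∂(mu ρ) = Zo (mu ρ) (0, k) * ∫ x, φ x ∂(mu (tl ρ k)) := by
  rw [integral_tl hρ h, ← Zf_eq_mul h]
  unfold Zf
  refine integral_congr_ae (Eventually.of_forall fun x => ?_)
  simp only [lx_zero]
  ring

theorem Zf_tl (k : Fin n → ℝ) (g : (Fin n → ℝ) → ℝ) (p : ℝ × (Fin n → ℝ)) :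
    Zf (mu (tl ρ k)) g p = Zf (mu ρ) g (p.1, k + p.2) / Zo (mu ρ) (0, k) := by
  have hZ := Zo_pos h (0, k)
  rw [eq_div_iff hZ.ne', mul_comm]
  unfold Zf
  rw [← integral_exp_mul hρ h]
  refine integral_congr_ae (Eventually.of_forall fun x => ?_)
  have e : lx x (p.1, k + p.2) = dt k x + lx x p := by
    unfold lx dt
    rw [← add_sub_assoc, ← Finset.sum_add_distrib]
    congr 1
    exact Finset.sum_congr rfl fun i _ => by simp only [Pi.add_apply]; ring
  simp only [e, exp_add]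
  ring

theorem Zo_tl (k : Fin n → ℝ) (p : ℝ × (Fin n → ℝ)) :
    Zo (mu (tl ρ k)) p = Zo (mu ρ) (p.1, k + p.2) / Zo (mu ρ) (0, k) :=
  Zf_tl hρ h k _ p

theorem Mf_tl (k : Fin n → ℝ) (g : (Fin n → ℝ) → ℝ) (p : ℝ × (Fin n → ℝ)) :
    Mf (mu (tl ρ k)) g p = Mf (mu ρ) g (p.1, k + p.2) := by
  have hZ := Zo_pos h (0, k)
  unfold Mf
  rw [Zf_tl hρ h, Zo_tl hρ h, div_div_div_cancel_right₀ hZ.ne']

/-- tilts compose -/
theorem tl_tl (k l : Fin n → ℝ) : tl (tl ρ k) l = tl ρ (k + l) := by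
  have hZ := Zo_pos h (0, k)
  funext x
  have e : Zo (mu (tl ρ k)) (0, l) = Zo (mu ρ) (0, k + l) / Zo (mu ρ) (0, k) := Zo_tl hρ h k _
  have e2 : exp (∑ i, (k + l) i * x i) = exp (∑ i, k i * x i) * exp (∑ i, l i * x i) := by
    rw [← exp_add, ← Finset.sum_add_distrib]
    congr 1
    exact Finset.sum_congr rfl fun i _ => by simp only [Pi.add_apply]; ring
  have hZ2 := Zo_pos h (0, k + l)
  change ρ x * (exp (∑ i, k i * x i) * (Zo (mu ρ) (0, k))⁻¹)
      * (exp (∑ i, l i * x i) * (Zo (mu (tl ρ k)) (0, l))⁻¹)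
    = ρ x * (exp (∑ i, (k + l) i * x i) * (Zo (mu ρ) (0, k + l))⁻¹)
  rw [e, e2]
  field_simp

omit hρ in
theorem Zo_zero' : Zo (mu ρ) (0, 0) = 1 := by
  unfold Zo Zf lx
  simp

omit hρ in
theorem tl_zero : tl ρ 0 = ρ := by
  funext x
  unfold tl
  rw [show ((0 : ℝ), (0 : Fin n → ℝ)) = (0, 0) from rfl, Zo_zero' h]
  simp

/-- the tilt of `μ * γ_r` by `k` is the shift by `r k` of `μ_k * γ_r` -/
theorem EY_tilt {r : ℝ} (hr : 0 ≤ r) (k : Fin n → ℝ) (Φ : (Fin n → ℝ) → ℝ) :
    EY (mu ρ) r (fun y => exp (dt k y) * Φ y)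
      = exp (r / 2 * dt k k) * Zo (mu ρ) (0, k)
        * EY (mu (tl ρ k)) r (fun y => Φ (y + r • k)) := by
  have key : ∀ x, PH r (fun y => exp (dt k y) * Φ y) x
      = exp (dt k x) * (exp (r / 2 * dt k k) * PH r (fun y => Φ (y + r • k)) x) := by
    intro x
    have h1 := integral_gam_shift (√r • k) (fun z => Φ (x + √r • z))
    have e1 : ∀ z : Fin n → ℝ, x + √r • (z + √r • k) = x + √r • z + r • k := by
      intro z
      rw [smul_add, smul_smul, mul_self_sqrt hr, ← add_assoc]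
    simp only [e1] at h1
    unfold PH
    rw [h1, ← integral_const_mul, ← integral_const_mul]
    refine integral_congr_ae (Eventually.of_forall fun z => ?_)
    have e2 : exp (dt k (x + √r • z)) = exp (dt k x) * (exp (r / 2 * dt k k) *
        exp (∑ i, (√r • k) i * z i - (∑ i, (√r • k) i ^ 2) / 2)) := by
      rw [← exp_add, ← exp_add, dt_add, dt_smul]
      congr 1
      have e3 : ∑ i, (√r • k) i * z i = √r * dt k z := by
        have := dt_smul_left k z (√r)
        unfold dt at this ⊢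
        exact this
      have e4 : ∑ i, (√r • k) i ^ 2 = r * dt k k := by
        rw [dt_self, Finset.mul_sum]
        refine Finset.sum_congr rfl fun i _ => ?_
        simp only [Pi.smul_apply, smul_eq_mul]
        rw [mul_pow, sq_sqrt hr]
      rw [e3, e4]
      ring
    simp only [e2]
    ring
  unfold EY
  simp only [key]
  rw [integral_exp_mul hρ h, integral_const_mul]
  ring

end

end Vale.Agent.P245.H827
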